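import Vale.Agent.H17.KK.General

/-!
# P064: the second Kahn–Kalai conjecture, bounded degree case of `p̃_E ≤ L p_E`

For every graph `H` on the vertex set `Fin n` (isolated vertices allowed) with maximum degree
at most `Δ ≥ 1`, the thresholds of the problem file satisfy `p̃_E(n,H) ≤ 216 Δ p_E(n,H)`.
-/

open Vale.Agent.H17.KK

theorem Vale.Agent.Results.P064.A_BoundedDegree.result (n : ℕ) (H : SimpleGraph (Fin n)) (Δ : ℕ)
    (hΔ : 1 ≤ Δ) (hdeg : ∀ v : Fin n, (H.neighborSet v).ncard ≤ Δ) :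
    pTildeE H ≤ 216 * (Δ : ℝ) * pE H := by
  set A : Set ℝ := {p : ℝ | 0 ≤ p ∧ p ≤ 1 ∧
    ∀ F : SimpleGraph (Fin n), F ≤ H → 1 / 2 ≤ expCount p F} with hA
  set B : Set ℝ := {p : ℝ | 0 ≤ p ∧ p ≤ 1 ∧
    ∀ F : SimpleGraph (Fin n), F ≤ H → (subCount H F : ℝ) / 2 ≤ expCount p F} with hB
  have hpE : pE H = sInf A := rfl
  have hpT : pTildeE H = sInf B := rfl
  have hBbdd : BddBelow B := ⟨0, fun p hp => hp.1⟩
  have htop : ∀ F : SimpleGraph (Fin n), (1 : ℝ) ≤ (subCount (⊤ : SimpleGraph (Fin n)) F : ℝ) := by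
    intro F
    have := subCount_top_pos F
    exact_mod_cast this
  have hAne : A.Nonempty := by
    refine ⟨1, by norm_num, le_refl _, fun F _ => ?_⟩
    unfold expCount
    have := htop F
    simp only [one_pow, mul_one]
    linarith
  have hc : (0 : ℝ) < 216 * (Δ : ℝ) := by
    have : (1 : ℝ) ≤ (Δ : ℝ) := by exact_mod_cast hΔ
    linarith
  have hmono : ∀ F : SimpleGraph (Fin n),
      (subCount H F : ℝ) ≤ (subCount (⊤ : SimpleGraph (Fin n)) F : ℝ) := by
    intro F
    have : subCount H F ≤ subCount (⊤ : SimpleGraph (Fin n)) F := by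
      unfold subCount
      apply Set.ncard_le_ncard _ (Set.toFinite _)
      rintro G' ⟨_, hσ⟩
      exact ⟨le_top, hσ⟩
    exact_mod_cast this
  have key : ∀ q ∈ A, pTildeE H ≤ 216 * (Δ : ℝ) * q := by
    rintro q ⟨hq0, hq1, hyp⟩
    rw [hpT]
    by_cases hbig : 216 * (Δ : ℝ) * q ≤ 1
    · apply csInf_le hBbdd
      refine ⟨by positivity, hbig, fun F hF => ?_⟩
      have h1 := counting_bounded_degree H Δ hΔ hdeg q hq0 hq1 hyp F hF
      have h0 : (0 : ℝ) ≤ (subCount H F : ℝ) := Nat.cast_nonneg _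
      unfold expCount
      linarith
    · have h1 : (1 : ℝ) ∈ B := by
        refine ⟨by norm_num, le_refl _, fun F _ => ?_⟩
        unfold expCount
        have h0 : (0 : ℝ) ≤ (subCount H F : ℝ) := Nat.cast_nonneg _
        have h2 := hmono F
        simp only [one_pow, mul_one]
        linarith
      exact (csInf_le hBbdd h1).trans (le_of_lt (not_le.mp hbig))
  have hfin : pTildeE H / (216 * (Δ : ℝ)) ≤ pE H := by
    rw [hpE]
    apply le_csInf hAne
    intro q hq
    rw [div_le_iff₀ hc]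
    have := key q hq
    linarith
  rw [div_le_iff₀ hc] at hfin
  linarith
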