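import Vale.Agent.H17.KK.Thresholds

/-!
# P064: `p̃_E ≤ 1600 max(log(2n), n p_E) p_E` for every graph

For every graph `H` on the vertex set `Fin n`, `n ≥ 1` (isolated vertices allowed), the
thresholds of the problem file satisfy
`p̃_E(n,H) ≤ 1600 * max (log (2 n)) (n * p_E(n,H)) * p_E(n,H)`.
The maximum degree of `H` is at most `max (e^2 n p_E) (log (2 n))` (expected number of stars),
and the bounded degree comparison `p̃_E ≤ 216 Δ p_E` finishes the proof.
-/

open Vale.Agent.H17.KK

theorem Vale.Agent.Results.P064.B_GeneralLog.result (n : ℕ) (hn : 1 ≤ n)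
    (H : SimpleGraph (Fin n)) :
    pTildeE H ≤ 1600 * max (Real.log (2 * n)) (n * pE H) * pE H := by
  set q := pE H with hqdef
  have hq : q ∈ pESet H := pE_mem H
  have hq0 : 0 ≤ q := hq.1
  set M : ℝ := max (Real.exp 2 * n * q) (Real.log (2 * n)) with hM
  set Δ : ℕ := max 1 ⌊M⌋₊ with hΔdef
  have hdeg : ∀ v : Fin n, (H.neighborSet v).ncard ≤ Δ := by
    intro v
    have h := degree_le_of_mem H q hq v
    exact (Nat.le_floor h).trans (le_max_right _ _)
  have hmain := pTildeE_le_of_mem H Δ (le_max_left _ _) hdeg q hq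
  have hn1 : (1 : ℝ) ≤ n := by exact_mod_cast hn
  have hlog2 : (0.69 : ℝ) ≤ Real.log (2 * n) := by
    have h1 : Real.log 2 ≤ Real.log (2 * n) := Real.log_le_log (by norm_num) (by linarith)
    have h2 := Real.log_two_gt_d9
    linarith
  have hM0 : 0 ≤ M := le_trans (by linarith) (le_max_right _ _)
  have hΔle : (Δ : ℝ) ≤ max 1 M := by
    rw [hΔdef, Nat.cast_max]
    exact max_le_max (by norm_num) (Nat.floor_le hM0)
  set R : ℝ := max (Real.log (2 * n)) (n * q) with hR
  have hexp2 : Real.exp 2 ≤ 7.4 := by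
    have h1 := Real.exp_one_lt_d9
    have h2 : Real.exp 2 = Real.exp 1 * Real.exp 1 := by rw [← Real.exp_add]; norm_num
    rw [h2]
    nlinarith [Real.exp_pos 1]
  have hR0 : 0.69 ≤ R := le_trans hlog2 (le_max_left _ _)
  have hnq : 0 ≤ (n : ℝ) * q := by positivity
  have hRnq : (n : ℝ) * q ≤ R := le_max_right _ _
  have hRlog : Real.log (2 * n) ≤ R := le_max_left _ _
  have hMR : max 1 M ≤ 7.4 * R := by
    apply max_le
    · linarith
    · apply max_le
      · calc Real.exp 2 * n * q = Real.exp 2 * (n * q) := by ring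
          _ ≤ 7.4 * (n * q) := mul_le_mul_of_nonneg_right hexp2 hnq
          _ ≤ 7.4 * R := by linarith
      · linarith
  have hΔR : (Δ : ℝ) ≤ 7.4 * R := hΔle.trans hMR
  have hRq : 0 ≤ R * q := mul_nonneg (by linarith) hq0
  calc pTildeE H ≤ 216 * (Δ : ℝ) * q := hmain
    _ ≤ 216 * (7.4 * R) * q := by
        have := mul_le_mul_of_nonneg_right hΔR hq0
        linarith
    _ ≤ 1600 * R * q := by nlinarith
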