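import Vale.Agent.H17.KK.Pc

/-!
# P064: the bound of Q1 for graphs of bounded degree, `p_c ≤ 40000 Δ p_E log n`

For every `n ≥ 2` and every graph `H` on the vertex set `Fin n` (isolated vertices allowed) with
maximum degree at most `Δ ≥ 1`, the thresholds of the problem file satisfy
`p_c(n,H) ≤ 40000 Δ p_E(n,H) log n`.

The proof combines the counting bound `p̃_E ≤ 216 Δ p_E` for graphs of bounded degree with a
formalisation of the Park–Pham argument (binomial model), which gives `p_c ≤ 185 p̃_E log n`.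
-/

open Vale.Agent.H17.KK

theorem Vale.Agent.Results.P064.C_PcBoundedDegree.result (n : ℕ) (hn : 2 ≤ n)
    (H : SimpleGraph (Fin n)) (Δ : ℕ) (hΔ : 1 ≤ Δ)
    (hdeg : ∀ v : Fin n, (H.neighborSet v).ncard ≤ Δ) :
    pC H ≤ 40000 * (Δ : ℝ) * pE H * Real.log n := by
  have h1 := pC_le_pTildeE_log hn H
  have h2 := pTildeE_le_of_mem H Δ hΔ hdeg (pE H) (pE_mem H)
  have hq0 : 0 ≤ pE H := (pE_mem H).1
  have hlogn : 0 ≤ Real.log n := Real.log_nonneg (by exact_mod_cast (by omega : 1 ≤ n))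
  have hΔ0 : (0 : ℝ) ≤ (Δ : ℝ) := Nat.cast_nonneg _
  have h3 : 0 ≤ (Δ : ℝ) * pE H * Real.log n := by positivity
  calc pC H ≤ 185 * pTildeE H * Real.log n := h1
    _ ≤ 185 * (216 * (Δ : ℝ) * pE H) * Real.log n := by
        apply mul_le_mul_of_nonneg_right _ hlogn
        linarith
    _ ≤ 40000 * (Δ : ℝ) * pE H * Real.log n := by nlinarith
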