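import Vale.Agent.H17.KK.Pc
import Vale.Agent.H17.KK.GeneralLog

/-!
# P064: `p_c ≤ 300000 max(log(2n), n p_E) p_E log n` for every graph

For every `n ≥ 2` and every graph `H` on the vertex set `Fin n` (isolated vertices allowed), the
thresholds of the problem file satisfy
`p_c(n,H) ≤ 300000 * max (log (2 n)) (n * p_E(n,H)) * p_E(n,H) * log n`.

The proof combines the counting bound `p̃_E ≤ 1600 max(log(2n), n p_E) p_E` with a formalisation
of the Park–Pham argument (binomial model), which gives `p_c ≤ 185 p̃_E log n`.
-/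

open Vale.Agent.H17.KK

theorem Vale.Agent.Results.P064.D_PcGeneral.result (n : ℕ) (hn : 2 ≤ n)
    (H : SimpleGraph (Fin n)) :
    pC H ≤ 300000 * max (Real.log (2 * n)) (n * pE H) * pE H * Real.log n := by
  have h1 := pC_le_pTildeE_log hn H
  have h2 := pTildeE_le_general n (by omega) H
  have hq0 : 0 ≤ pE H := (pE_mem H).1
  have hlogn : 0 ≤ Real.log n := Real.log_nonneg (by exact_mod_cast (by omega : 1 ≤ n))
  have hmax : 0 ≤ max (Real.log (2 * n)) (n * pE H) :=
    le_trans (by positivity) (le_max_right _ _)
  have h3 : 0 ≤ max (Real.log (2 * n)) (n * pE H) * pE H * Real.log n := by positivity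
  calc pC H ≤ 185 * pTildeE H * Real.log n := h1
    _ ≤ 185 * (1600 * max (Real.log (2 * n)) (n * pE H) * pE H) * Real.log n := by
        apply mul_le_mul_of_nonneg_right _ hlogn
        linarith
    _ ≤ 300000 * max (Real.log (2 * n)) (n * pE H) * pE H * Real.log n := by nlinarith
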