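import Vale.Agent.H17.KK.Pc
import Vale.Agent.H17.KK.GeneralLog
import Vale.Agent.Results.P064.C_PcBoundedDegree
import Vale.Agent.Results.P064.D_PcGeneral

/-!
# P064: three bounds on `p_c` in one statement

For every `n ≥ 2` and every graph `H` on the vertex set `Fin n` (isolated vertices allowed):

(1) if all degrees of `H` are at most `Δ ≥ 1`, then
(a) `p_c(n,H) ≤ 13824 Δ s p_E(n,H)`, where `s = Nat.size (e(H))` is the number of binary digits
of the number of edges of `H`, and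
(b) `p_c(n,H) ≤ 40000 Δ p_E(n,H) log n`;
(2) with no degree assumption,
`p_c(n,H) ≤ 300000 * max (log (2 n)) (n * p_E(n,H)) * p_E(n,H) * log n`.

(1b) and (2) are the statements of `C_PcBoundedDegree` and `D_PcGeneral`; (1a) combines the
counting bound `p̃_E ≤ 216 Δ p_E` with `p_c ≤ 64 s p̃_E` (the Park–Pham argument).
-/

open Vale.Agent.H17.KK

theorem Vale.Agent.Results.P064.C00_PcThreeBounds.result (n : ℕ) (hn : 2 ≤ n)
    (H : SimpleGraph (Fin n)) :
    (∀ Δ : ℕ, 1 ≤ Δ → (∀ v : Fin n, (H.neighborSet v).ncard ≤ Δ) →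
      pC H ≤ 13824 * (Δ : ℝ) * (Nat.size H.edgeSet.ncard : ℝ) * pE H ∧
      pC H ≤ 40000 * (Δ : ℝ) * pE H * Real.log n) ∧
    pC H ≤ 300000 * max (Real.log (2 * n)) (n * pE H) * pE H * Real.log n := by
  refine ⟨fun Δ hΔ hdeg => ⟨?_, Vale.Agent.Results.P064.C_PcBoundedDegree.result n hn H Δ hΔ hdeg⟩,
    Vale.Agent.Results.P064.D_PcGeneral.result n hn H⟩
  have h1 := pC_le_size H
  have h2 := pTildeE_le_of_mem H Δ hΔ hdeg (pE H) (pE_mem H)
  have hs : (0 : ℝ) ≤ (Nat.size H.edgeSet.ncard : ℝ) := Nat.cast_nonneg _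
  calc pC H ≤ 64 * (Nat.size H.edgeSet.ncard : ℝ) * pTildeE H := h1
    _ ≤ 64 * (Nat.size H.edgeSet.ncard : ℝ) * (216 * (Δ : ℝ) * pE H) := by
        apply mul_le_mul_of_nonneg_left h2
        positivity
    _ = 13824 * (Δ : ℝ) * (Nat.size H.edgeSet.ncard : ℝ) * pE H := by ring
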