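import Vale.Agent.H17.KK.Pc
import Vale.Agent.H17.KK.GeneralLog
import Vale.Agent.Results.P064.C_PcBoundedDegree
import Vale.Agent.Results.P064.D_PcGeneral

/-!
# P064: the two bounds on `p_c` in one statement

For every `n ≥ 2` and every graph `H` on the vertex set `Fin n` (isolated vertices allowed):

(1) if all degrees of `H` are at most `Δ ≥ 1`, then `p_c(n,H) ≤ 40000 Δ p_E(n,H) log n`;
(2) with no degree assumption,
`p_c(n,H) ≤ 300000 * max (log (2 n)) (n * p_E(n,H)) * p_E(n,H) * log n`.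

This is the conjunction of the statements of `C_PcBoundedDegree` and `D_PcGeneral`.
-/

open Vale.Agent.H17.KK

theorem Vale.Agent.Results.P064.C0_PcBothBounds.result (n : ℕ) (hn : 2 ≤ n)
    (H : SimpleGraph (Fin n)) :
    (∀ Δ : ℕ, 1 ≤ Δ → (∀ v : Fin n, (H.neighborSet v).ncard ≤ Δ) →
      pC H ≤ 40000 * (Δ : ℝ) * pE H * Real.log n) ∧
    pC H ≤ 300000 * max (Real.log (2 * n)) (n * pE H) * pE H * Real.log n :=
  ⟨fun Δ hΔ hdeg => Vale.Agent.Results.P064.C_PcBoundedDegree.result n hn H Δ hΔ hdeg,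
    Vale.Agent.Results.P064.D_PcGeneral.result n hn H⟩
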